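import Mathlib
import Vale.Agent.Lib.P018.Real

namespace Vale.Agent.Results.P018.BiquadraticLargeSquares

/-- For integers `a, b, c` with `a ≠ 0` and `b ^ 2 ≠ 4 a c` there is a constant `C` such that for
all `X ≥ 2`, `Y ≥ 1`, the number of `1 ≤ n ≤ X` for which `F n = a n ^ 4 + b n ^ 2 + c` is nonzero
and divisible by `y ^ 2` for some natural `y ≥ Y` is at most `C (X ^ 4 / Y ^ 2 + 1) log X`. -/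
theorem result (a b c : ℤ) (ha : a ≠ 0) (hD : b ^ 2 - 4 * a * c ≠ 0) :
    ∃ C : ℝ, ∀ X Y : ℕ, 2 ≤ X → 1 ≤ Y →
      (Set.ncard {n : ℕ | 1 ≤ n ∧ n ≤ X ∧ a * (n : ℤ) ^ 4 + b * (n : ℤ) ^ 2 + c ≠ 0 ∧
        ∃ y : ℕ, Y ≤ y ∧ (y : ℤ) ^ 2 ∣ a * (n : ℤ) ^ 4 + b * (n : ℤ) ^ 2 + c} : ℝ)
      ≤ C * ((X : ℝ) ^ 4 / (Y : ℝ) ^ 2 + 1) * Real.log X := by
  classical
  obtain ⟨C, hC⟩ := Vale.Agent.Lib.P018.real_bound a b c ha hD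
  refine ⟨C, fun X Y hX hY => ?_⟩
  have h := hC X Y hX hY
  have hset : {n : ℕ | 1 ≤ n ∧ n ≤ X ∧ a * (n : ℤ) ^ 4 + b * (n : ℤ) ^ 2 + c ≠ 0 ∧
        ∃ y : ℕ, Y ≤ y ∧ (y : ℤ) ^ 2 ∣ a * (n : ℤ) ^ 4 + b * (n : ℤ) ^ 2 + c}
      = ↑((Finset.Icc 1 X).filter (fun n : ℕ => a * (n : ℤ) ^ 4 + b * (n : ℤ) ^ 2 + c ≠ 0 ∧
        ∃ y : ℕ, Y ≤ y ∧ (y : ℤ) ^ 2 ∣ a * (n : ℤ) ^ 4 + b * (n : ℤ) ^ 2 + c)) := by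
    ext n
    simp [and_assoc]
  rw [hset, Set.ncard_coe_finset]
  convert h

end Vale.Agent.Results.P018.BiquadraticLargeSquares
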